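import Vale.Agent.P093H.Defs

/-! P093H Cnt (TASK). Counting visits. Helper names start with `hcn_`.
`cnt` as a sum of indicators (`Finset.card_filter`, `Finset.sum_range_add`). `mx`: `le_ciSup`, `Nat.sSup_mem`, `ciSup_le`.
`mx_upper`: choose `n` with `mx (n + 1) / (n + 1) < cap + ε` (`exists_lt_of_ciInf_lt`); `cnt z N ≤ cnt z ((n + 1) * (N / (n + 1) + 1)) ≤ (N / (n + 1) + 1) * mx (n + 1)` by `cnt_add` and induction. `exists_mx`: the same with `q = (n + 1) * (Q₀ + 1)`.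
`free_count`: the map `(s, i) ↦ s + i` is injective on `V × range q` (`hY`: two visits differ by at least `q`), and maps the pairs with `σ ^ (s + i) z ∉ F` into the non-visits in `range (N + q)`, a set of cardinality `N + q - cnt σ F z (N + q) ≤ N + q - cnt σ F z N`. These pairs are the disjoint union of the set in the statement and of the pairs with `i ∉ T (σ ^ s z)` (`hTF`), there are `(q - m) * card V` of the latter (`Finset.card_sigma`, `Finset.card_sdiff`, or `Finset.card_eq_sum_card_fiberwise`). -/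

open Filter Topology Set

noncomputable section

namespace Vale.Agent.P093

variable {Z : Type} [TopologicalSpace Z] {σ : Z ≃ₜ Z} {F : Set Z}

theorem hcn_pow (z : Z) (s i : ℤ) : (σ ^ i) ((σ ^ s) z) = (σ ^ (s + i)) z := by
  rw [add_comm, zpow_add]
  rfl

theorem cnt_le (z : Z) (N : ℕ) : cnt σ F z N ≤ N := by
  classical
  exact (Finset.card_filter_le _ _).trans (Finset.card_range N).le

theorem cnt_add (z : Z) (N M : ℕ) :
    cnt σ F z (N + M) = cnt σ F z N + cnt σ F ((σ ^ (N : ℤ)) z) M := by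
  classical
  simp only [cnt, Finset.card_filter, Finset.sum_range_add, hcn_pow, Nat.cast_add]

theorem cnt_le_mx (z : Z) (N : ℕ) : cnt σ F z N ≤ mx σ F N := by
  exact le_ciSup (f := fun z => cnt σ F z N) ⟨N, by rintro _ ⟨z, rfl⟩; exact cnt_le z N⟩ z

theorem mx_le (N : ℕ) : mx σ F N ≤ N := by
  exact ciSup_le' fun z => cnt_le z N

theorem exists_cnt_eq [Nonempty Z] (N : ℕ) : ∃ z, cnt σ F z N = mx σ F N := by
  exact Nat.sSup_mem (range_nonempty fun z => cnt σ F z N)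
    ⟨N, by rintro _ ⟨z, rfl⟩; exact cnt_le z N⟩

theorem hcn_mono (z : Z) {N M : ℕ} (h : N ≤ M) : cnt σ F z N ≤ cnt σ F z M := by
  obtain ⟨d, rfl⟩ := Nat.exists_eq_add_of_le h
  rw [cnt_add]
  exact Nat.le_add_right _ _

theorem hcn_bdd : BddBelow (range fun n : ℕ => (mx σ F (n + 1) : ℝ) / (n + 1)) :=
  ⟨0, by rintro _ ⟨n, rfl⟩; positivity⟩

theorem hcn_mul (n k : ℕ) : ∀ z, cnt σ F z (n * k) ≤ k * mx σ F n := by
  induction k with
  | zero => exact fun z => (cnt_le z _).trans (by simp)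
  | succ k ih =>
    intro z
    rw [Nat.mul_succ, cnt_add, Nat.succ_mul]
    exact add_le_add (ih z) (cnt_le_mx _ _)

theorem hcn_ex {ε : ℝ} (hε : 0 < ε) : ∃ n : ℕ, ∀ k : ℕ,
    (mx σ F ((n + 1) * k) : ℝ) ≤ (cap σ F + ε) * ((n + 1) * k : ℕ) := by
  obtain ⟨n, hn⟩ := exists_lt_of_ciInf_lt (lt_add_of_pos_right (cap σ F) hε)
  rw [div_lt_iff₀ (by positivity)] at hn
  refine ⟨n, fun k => ?_⟩
  have h1 : mx σ F ((n + 1) * k) ≤ k * mx σ F (n + 1) := ciSup_le' (hcn_mul _ k)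
  refine (Nat.cast_le.2 h1).trans ?_
  push_cast
  rw [← mul_assoc, mul_comm (k : ℝ)]
  exact mul_le_mul_of_nonneg_right hn.le (Nat.cast_nonneg k)

theorem cap_nonneg : 0 ≤ cap σ F := by
  exact Real.iInf_nonneg fun n => by positivity

theorem cap_le_one : cap σ F ≤ 1 := by
  refine (ciInf_le hcn_bdd 0).trans ?_
  simpa using mx_le (σ := σ) (F := F) 1

theorem cap_mul_le (N : ℕ) : cap σ F * N ≤ mx σ F N := by
  rcases N with _ | n
  · simp
  · have := ciInf_le (hcn_bdd (σ := σ) (F := F)) n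
    rw [le_div_iff₀ (by positivity)] at this
    rw [Nat.cast_succ]
    exact this

theorem mx_upper {ε : ℝ} (hε : 0 < ε) :
    ∃ C : ℝ, ∀ N : ℕ, (mx σ F N : ℝ) ≤ (cap σ F + ε) * N + C := by
  obtain ⟨n, hn⟩ := hcn_ex (σ := σ) (F := F) hε
  refine ⟨(cap σ F + ε) * (n + 1), fun N => ?_⟩
  have h1 : N ≤ (n + 1) * (N / (n + 1) + 1) := (Nat.lt_mul_div_succ N n.succ_pos).le
  have h2 : (n + 1) * (N / (n + 1) + 1) ≤ N + (n + 1) := by
    rw [mul_add, mul_one]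
    exact Nat.add_le_add_right (Nat.mul_div_le N (n + 1)) _
  have h3 : mx σ F N ≤ mx σ F ((n + 1) * (N / (n + 1) + 1)) :=
    ciSup_le' fun z => (hcn_mono z h1).trans (cnt_le_mx z _)
  have h4 : (((n + 1) * (N / (n + 1) + 1) : ℕ) : ℝ) ≤ N + (n + 1) := by exact_mod_cast h2
  refine ((Nat.cast_le.2 h3).trans (hn _)).trans ?_
  rw [← mul_add]
  exact mul_le_mul_of_nonneg_left h4 (add_nonneg cap_nonneg hε.le)

theorem exists_mx {ε : ℝ} (hε : 0 < ε) (Q₀ : ℕ) :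
    ∃ q : ℕ, Q₀ < q ∧ (mx σ F q : ℝ) ≤ (cap σ F + ε) * q := by
  obtain ⟨n, hn⟩ := hcn_ex (σ := σ) (F := F) hε
  exact ⟨(n + 1) * (Q₀ + 1), by nlinarith, hn _⟩

open Classical in
theorem free_count {Y : Set Z} {q m : ℕ}
    (hY : ∀ z ∈ Y, ∀ i : ℕ, 0 < i → i < q → (σ ^ (i : ℤ)) z ∉ Y) {T : Z → Finset ℕ}
    (hT : ∀ z, T z ⊆ Finset.range q) (hm : ∀ z, (T z).card = m)
    (hTF : ∀ z, ∀ i < q, (σ ^ (i : ℤ)) z ∈ F → i ∈ T z) (z : Z) (N : ℕ) :
    ((Finset.range N ×ˢ Finset.range q).filter fun a : ℕ × ℕ => (σ ^ (a.1 : ℤ)) z ∈ Y ∧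
      a.2 ∈ T ((σ ^ (a.1 : ℤ)) z) ∧ (σ ^ ((a.1 : ℤ) + a.2)) z ∉ F).card +
      cnt σ F z N + q * cnt σ Y z N ≤ m * cnt σ Y z N + N + q := by
  set S := (Finset.range N ×ˢ Finset.range q).filter fun a : ℕ × ℕ => (σ ^ (a.1 : ℤ)) z ∈ Y ∧
    a.2 ∈ T ((σ ^ (a.1 : ℤ)) z) ∧ (σ ^ ((a.1 : ℤ) + a.2)) z ∉ F
  set V := (Finset.range N).filter fun i : ℕ => (σ ^ (i : ℤ)) z ∈ Y with hV
  have e0 : cnt σ Y z N = V.card := rfl
  have h1 := Finset.card_filter_add_card_filter_not (s := V ×ˢ Finset.range q)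
    fun a => a.2 ∈ T ((σ ^ (a.1 : ℤ)) z)
  have h2 : ((V ×ˢ Finset.range q).filter fun a => a.2 ∈ T ((σ ^ (a.1 : ℤ)) z)).card =
      V.card * m := by
    rw [Finset.card_filter, Finset.sum_product, ← smul_eq_mul, ← Finset.sum_const]
    refine Finset.sum_congr rfl fun s _ => ?_
    dsimp only
    rw [← Finset.card_filter, Finset.filter_mem_eq_inter, Finset.inter_eq_right.2 (hT _), hm]
  set S₂ := (V ×ˢ Finset.range q).filter fun a => ¬ a.2 ∈ T ((σ ^ (a.1 : ℤ)) z)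
  have h3 := Finset.card_filter_add_card_filter_not (s := Finset.range (N + q))
    fun i : ℕ => (σ ^ (i : ℤ)) z ∈ F
  have h4 : cnt σ F z N ≤ ((Finset.range (N + q)).filter fun i : ℕ => (σ ^ (i : ℤ)) z ∈ F).card :=
    hcn_mono z (Nat.le_add_right N q)
  have h5 : ∀ a ∈ S ∪ S₂, a.1 < N ∧ a.2 < q ∧ (σ ^ (a.1 : ℤ)) z ∈ Y ∧
      (σ ^ ((a.1 : ℤ) + a.2)) z ∉ F := fun a ha => by
    simp only [S, S₂, hV, Finset.mem_union, Finset.mem_filter, Finset.mem_product,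
      Finset.mem_range] at ha
    rcases ha with h | h
    · exact ⟨h.1.1, h.1.2, h.2.1, h.2.2.2⟩
    · exact ⟨h.1.1.1, h.1.2, h.1.1.2, fun h' => h.2 (hTF _ _ h.1.2 (by rwa [hcn_pow]))⟩
  have h6 : ∀ a ∈ S ∪ S₂, ∀ b ∈ S ∪ S₂, a.1 + a.2 = b.1 + b.2 → ¬ a.1 < b.1 := by
    intro a ha b hb e h
    obtain ⟨d, hd⟩ := Nat.exists_eq_add_of_le h.le
    refine hY _ (h5 a ha).2.2.1 d (by omega) (by have := (h5 a ha).2.1; omega) ?_
    rw [hcn_pow, ← Nat.cast_add, ← hd]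
    exact (h5 b hb).2.2.1
  have h7 : (S ∪ S₂).card ≤
      ((Finset.range (N + q)).filter fun i : ℕ => ¬ (σ ^ (i : ℤ)) z ∈ F).card := by
    refine Finset.card_le_card_of_injOn (fun a => a.1 + a.2) (fun a ha => ?_) fun a ha b hb e => ?_
    · obtain ⟨a1, a2, -, a4⟩ := h5 a ha
      exact Finset.mem_filter.2 ⟨Finset.mem_range.2 (Nat.add_lt_add a1 a2), by
        rwa [Nat.cast_add]⟩
    · have := h6 a ha b hb e
      have := h6 b hb a ha e.symm
      dsimp only at e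
      exact Prod.ext (by omega) (by omega)
  have h8 : Disjoint S S₂ := Finset.disjoint_left.2 fun a ha hb =>
    (Finset.mem_filter.1 hb).2 (Finset.mem_filter.1 ha).2.2.1
  rw [Finset.card_union_of_disjoint h8] at h7
  rw [h2, Finset.card_product, Finset.card_range] at h1
  rw [Finset.card_range] at h3
  rw [e0, mul_comm q, mul_comm m]
  omega

end Vale.Agent.P093
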