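import Vale.Agent.P093H.Cnt

/-! P093H Rok (TASK). Clopen towers. Helper names start with `hrk_`.
`exists_marker`: fix `z₀`; for `0 < i < Q` the set `{(a, b) | σ ^ i a ≠ b}` is an open neighbourhood of `(z₀, z₀)`, so there is a neighbourhood `W` of `z₀` with `σ ^ i a ≠ b` for `a, b ∈ W`; take a clopen `Y₀` with `z₀ ∈ Y₀ ⊆ W` (`compact_exists_isClopen_in_isOpen`). The open sets `(σ ^ n) ⁻¹' Y₀`, `n : ℤ`, cover `Z` (`Dense.exists_mem_open`), finitely many suffice (`IsCompact.elim_finite_subcover`), say `|n| ≤ m`; apply this to `σ ^ (-m) z`.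
`exists_tower`: take `Q` with `q ≤ ε Q`, `0 < Q`. `s z = Nat.find (∃ n, σ ^ (-n) z ∈ Y₀)`, `Y = {z | q ∣ s z ∧ ∀ 0 < i < q, σ ^ i z ∉ Y₀}`. The sets `{s = n}` are clopen (`Nat.find_eq_iff`, finite intersections), and `s < Q'`, so `Y` is clopen. If `σ ^ i z ∉ Y₀` for `0 < i ≤ j` then `s (σ ^ j z) = s z + j`; this gives `disj`.
`fill`: every `z` has either `0 < j < q` with `σ ^ j z ∈ Y₀`, or `σ ^ (-i) z ∈ Y` for `i = s z % q`. So `range N` shifted by `q` (the times `q, …, q + N - 1`) is covered by the sets `{n | σ ^ (n - i) z ∈ Y}`, `i < q`, and `{n | σ ^ (n + j) z ∈ Y₀}`, `j < q`: `N ≤ q * cnt Y z (N + q) + q * cnt Y₀ z (N + 2 q)`; `cnt Y z (N + q) ≤ cnt Y z N + q` (`cnt_add`, `cnt_le`), and `Q * cnt Y₀ z M ≤ M + Q` (`n ↦ n / Q` is injective on the visits). -/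

open Filter Topology Set

noncomputable section

namespace Vale.Agent.P093

theorem hrk_add {Z : Type} [TopologicalSpace Z] (σ : Z ≃ₜ Z) (a b : ℤ) (z : Z) :
    (σ ^ a) ((σ ^ b) z) = (σ ^ (a + b)) z := by
  rw [zpow_add]
  rfl

theorem hrk_sparse {Z : Type} [TopologicalSpace Z] {σ : Z ≃ₜ Z} {Y : Set Z} {Q : ℕ} (hQ : 0 < Q)
    (h : ∀ z ∈ Y, ∀ i : ℕ, 0 < i → i < Q → (σ ^ (i : ℤ)) z ∉ Y) (z : Z) (N : ℕ) :
    Q * cnt σ Y z N ≤ N + Q := by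
  classical
  have key : ∀ a b : ℕ, (σ ^ (a : ℤ)) z ∈ Y → (σ ^ (b : ℤ)) z ∈ Y → a / Q = b / Q → ¬ a < b := by
    intro a b ha hb e hab
    have h1 := Nat.div_add_mod a Q
    have h2 := Nat.div_add_mod b Q
    have h3 := Nat.mod_lt b hQ
    rw [e] at h1
    refine h _ ha (b - a) (by omega) (by omega) ?_
    rwa [hrk_add, Nat.cast_sub hab.le, sub_add_cancel]
  have h1 : cnt σ Y z N ≤ (Finset.range (N / Q + 1)).card := by
    refine Finset.card_le_card_of_injOn (· / Q) (fun a ha => ?_) fun a ha b hb e => ?_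
    · have := Finset.mem_range.1 (Finset.mem_filter.1 ha).1
      exact Finset.mem_range.2 (Nat.lt_succ_of_le (Nat.div_le_div_right this.le))
    · have ha' := (Finset.mem_filter.1 ha).2
      have hb' := (Finset.mem_filter.1 hb).2
      exact le_antisymm (not_lt.1 (key b a hb' ha' e.symm)) (not_lt.1 (key a b ha' hb' e))
  rw [Finset.card_range] at h1
  refine (Nat.mul_le_mul_left Q h1).trans ?_
  rw [mul_add, mul_one]
  exact Nat.add_le_add_right (Nat.mul_div_le N Q) Q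

theorem hrk_cover {Z : Type} [TopologicalSpace Z] {σ : Z ≃ₜ Z} {Y Y₀ : Set Z} {q : ℕ}
    (h : ∀ z, (∃ j < q, (σ ^ (j : ℤ)) z ∈ Y₀) ∨ ∃ i < q, (σ ^ (-(i : ℤ))) z ∈ Y) (z : Z) (N : ℕ) :
    N ≤ ∑ j ∈ Finset.range q, cnt σ Y₀ ((σ ^ (j : ℤ)) z) N + q * (q + cnt σ Y z N) := by
  classical
  have h1 : Finset.range N ⊆ (Finset.range q).biUnion (fun j : ℕ => (Finset.range N).filter
      fun n : ℕ => (σ ^ (n : ℤ)) ((σ ^ (j : ℤ)) z) ∈ Y₀) ∪ (Finset.range q).biUnion fun i : ℕ =>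
        (Finset.range N).filter fun n : ℕ => (σ ^ (n : ℤ)) ((σ ^ (-(i : ℤ))) z) ∈ Y := by
    intro n hn
    simp only [Finset.mem_union, Finset.mem_biUnion, Finset.mem_filter, hrk_add]
    rcases h ((σ ^ (n : ℤ)) z) with ⟨j, hj, e⟩ | ⟨j, hj, e⟩ <;> rw [hrk_add, add_comm] at e
    · exact Or.inl ⟨j, Finset.mem_range.2 hj, hn, e⟩
    · exact Or.inr ⟨j, Finset.mem_range.2 hj, hn, e⟩
  have h2 := (Finset.card_le_card h1).trans ((Finset.card_union_le _ _).trans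
    (add_le_add Finset.card_biUnion_le Finset.card_biUnion_le))
  rw [Finset.card_range] at h2
  refine h2.trans (add_le_add le_rfl ((Finset.sum_le_card_nsmul _ _ (q + cnt σ Y z N)
    fun i hi => ?_).trans (by rw [Finset.card_range, smul_eq_mul])))
  have e1 := cnt_add (σ := σ) (F := Y) ((σ ^ (-(i : ℤ))) z) N i
  have e2 := cnt_add (σ := σ) (F := Y) ((σ ^ (-(i : ℤ))) z) i N
  have e3 := cnt_le (σ := σ) (F := Y) ((σ ^ (-(i : ℤ))) z) i
  rw [hrk_add, add_neg_cancel, zpow_zero, add_comm i N, e1, Homeomorph.one_apply] at e2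
  have e4 := Finset.mem_range.1 hi
  change cnt σ Y ((σ ^ (-(i : ℤ))) z) N ≤ _
  omega

variable {Z : Type} [TopologicalSpace Z] [CompactSpace Z] [T2Space Z]
  [TotallyDisconnectedSpace Z] [Nonempty Z] {σ : Z ≃ₜ Z}

theorem exists_marker (hmin : ∀ z, Dense (range fun n : ℤ => (σ ^ n) z))
    (hap : ∀ z, ∀ n : ℤ, n ≠ 0 → (σ ^ n) z ≠ z) (Q : ℕ) :
    ∃ (Y₀ : Set Z) (Q' : ℕ), IsClopen Y₀ ∧
      (∀ z ∈ Y₀, ∀ i : ℕ, 0 < i → i < Q → (σ ^ (i : ℤ)) z ∉ Y₀) ∧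
      ∀ z, ∃ n < Q', (σ ^ (-(n : ℤ))) z ∈ Y₀ := by
  obtain ⟨z₀⟩ := ‹Nonempty Z›
  have h1 : ∀ i : ℕ, ∃ U : Set Z, IsClopen U ∧ z₀ ∈ U ∧ (0 < i → (σ ^ (i : ℤ)) z₀ ∈ Uᶜ) := by
    intro i
    rcases Nat.eq_zero_or_pos i with rfl | hi
    · exact ⟨univ, isClopen_univ, mem_univ _, fun h => absurd h (lt_irrefl _)⟩
    · obtain ⟨U, h1, h2, h3⟩ := exists_isClopen_of_totally_separated
        (hap z₀ i (by exact_mod_cast hi.ne')).symm
      exact ⟨U, h1, h2, fun _ => h3⟩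
  choose U hU h0 hi using h1
  obtain ⟨Y, hY⟩ : ∃ Y, Y = ⋂ i ∈ Finset.Ioo 0 Q, U i ∩ (σ ^ (i : ℤ)) ⁻¹' (U i)ᶜ := ⟨_, rfl⟩
  have hc : IsClopen Y := hY ▸ isClopen_biInter_finset fun i _ =>
    (hU i).inter ((hU i).compl.preimage (σ ^ (i : ℤ)).continuous)
  have hz : z₀ ∈ Y := hY ▸ mem_iInter₂.2 fun i h => ⟨h0 i, hi i (Finset.mem_Ioo.1 h).1⟩
  obtain ⟨t, ht⟩ := isCompact_univ.elim_finite_subcover (fun n : ℤ => (σ ^ n) ⁻¹' Y)
    (fun n => hc.isOpen.preimage (σ ^ n).continuous) fun z _ => by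
      obtain ⟨_, ⟨n, rfl⟩, hn⟩ := (hmin z).exists_mem_open hc.isOpen ⟨z₀, hz⟩
      exact mem_iUnion.2 ⟨n, hn⟩
  refine ⟨Y, 2 * t.sup Int.natAbs + 1, hc, fun z hz i h1 h2 hz' => ?_, fun z => ?_⟩
  · rw [hY] at hz hz'
    exact (mem_iInter₂.1 hz i (Finset.mem_Ioo.2 ⟨h1, h2⟩)).2
      (mem_iInter₂.1 hz' i (Finset.mem_Ioo.2 ⟨h1, h2⟩)).1
  · obtain ⟨n, hn, h⟩ := mem_iUnion₂.1 (ht (mem_univ ((σ ^ (-((t.sup Int.natAbs : ℕ) : ℤ))) z)))
    have h1 : n.natAbs ≤ t.sup Int.natAbs := Finset.le_sup (f := Int.natAbs) hn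
    rw [mem_preimage, hrk_add] at h
    refine ⟨(((t.sup Int.natAbs : ℕ) : ℤ) - n).toNat, by omega, ?_⟩
    rwa [Int.toNat_of_nonneg (by omega), neg_sub, sub_eq_add_neg]

theorem exists_tower (hmin : ∀ z, Dense (range fun n : ℤ => (σ ^ n) z))
    (hap : ∀ z, ∀ n : ℤ, n ≠ 0 → (σ ^ n) z ≠ z) {q : ℕ} (hq : 0 < q) {ε : ℝ} (hε : 0 < ε) :
    ∃ Y, Tower σ q ε Y := by
  classical
  obtain ⟨Q, hQ⟩ := exists_nat_gt (q / ε)
  have hQ0 : (0 : ℝ) < Q := lt_trans (by positivity) hQ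
  rw [div_lt_iff₀ hε] at hQ
  obtain ⟨Y₀, Q', hc, hsp, hcov⟩ := exists_marker hmin hap Q
  have ex : ∀ z, ∃ n : ℕ, (σ ^ (-(n : ℤ))) z ∈ Y₀ := fun z => (hcov z).imp fun _ h => h.2
  have key : ∀ (j : ℕ) z, (∀ i : ℕ, 0 < i → i ≤ j → (σ ^ (i : ℤ)) z ∉ Y₀) →
      Nat.find (ex ((σ ^ (j : ℤ)) z)) = Nat.find (ex z) + j := by
    intro j z h
    refine (Nat.find_eq_iff _).2 ⟨?_, fun m hm => ?_⟩
    · rw [hrk_add, Nat.cast_add, neg_add, neg_add_cancel_right]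
      exact Nat.find_spec (ex z)
    · rw [hrk_add]
      rcases lt_or_ge m j with h1 | h1
      · rw [neg_add_eq_sub, ← Nat.cast_sub h1.le]
        exact h _ (by omega) (by omega)
      · rw [neg_add_eq_sub, ← neg_sub, ← Nat.cast_sub h1]
        exact Nat.find_min (ex z) (by omega)
  have hp : ∀ n : ℤ, IsClopen ((σ ^ n) ⁻¹' Y₀) := fun n => hc.preimage (σ ^ n).continuous
  refine ⟨{z | q ∣ Nat.find (ex z) ∧ ∀ i : ℕ, 0 < i → i < q → (σ ^ (i : ℤ)) z ∉ Y₀}, ?_,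
    fun z hz i h1 h2 hz' => ?_, q + q * q, fun z N => ?_⟩
  · have e : {z | q ∣ Nat.find (ex z) ∧ ∀ i : ℕ, 0 < i → i < q → (σ ^ (i : ℤ)) z ∉ Y₀} =
        (⋃ n ∈ (Finset.range Q').filter (q ∣ ·), (σ ^ (-(n : ℤ))) ⁻¹' Y₀ ∩
          ⋂ m ∈ Finset.range n, ((σ ^ (-(m : ℤ))) ⁻¹' Y₀)ᶜ) ∩
          ⋂ i ∈ Finset.Ioo 0 q, ((σ ^ (i : ℤ)) ⁻¹' Y₀)ᶜ := by
      ext z
      simp only [mem_ofPred_eq, mem_inter_iff, mem_iUnion, mem_iInter, Finset.mem_filter,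
        Finset.mem_range, Finset.mem_Ioo, mem_compl_iff, mem_preimage, exists_prop, and_imp]
      refine and_congr_left' ⟨fun h => ?_, fun ⟨n, h1, h2⟩ => ?_⟩
      · obtain ⟨n, h1, h2⟩ := hcov z
        exact ⟨_, ⟨(Nat.find_min' (ex z) h2).trans_lt h1, h⟩, (Nat.find_eq_iff (ex z)).1 rfl⟩
      · rw [(Nat.find_eq_iff (ex z)).2 h2]
        exact h1.2
    rw [e]
    exact (isClopen_biUnion_finset fun n _ => (hp _).inter
      (isClopen_biInter_finset fun m _ => (hp _).compl)).inter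
        (isClopen_biInter_finset fun i _ => (hp _).compl)
  · have h3 := hz'.1
    rw [key i z fun k k0 k1 => hz.2 k k0 (k1.trans_lt h2)] at h3
    exact absurd (Nat.le_of_dvd h1 ((Nat.dvd_add_right hz.1).1 h3)) (not_le.2 h2)
  · have h1 := hrk_cover (σ := σ) (Y₀ := Y₀) (q := q) (Y := {z | q ∣ Nat.find (ex z) ∧
        ∀ i : ℕ, 0 < i → i < q → (σ ^ (i : ℤ)) z ∉ Y₀}) (fun z => ?_) z N
    · have h2 : ∀ j ∈ Finset.range q, (cnt σ Y₀ ((σ ^ (j : ℤ)) z) N : ℝ) ≤ N / Q + 1 := by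
        intro j _
        rw [div_add_one hQ0.ne', le_div_iff₀' hQ0]
        exact_mod_cast hrk_sparse (by exact_mod_cast hQ0) hsp _ N
      have h3 := Finset.sum_le_card_nsmul _ _ _ h2
      rw [Finset.card_range, nsmul_eq_mul] at h3
      have h4 := (Nat.cast_le (α := ℝ)).2 h1
      push_cast at h4
      have h5 : (q : ℝ) * (N / Q) ≤ ε * N := by
        rw [mul_div_assoc', div_le_iff₀ hQ0]
        nlinarith [(Nat.cast_nonneg N : (0 : ℝ) ≤ N)]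
      linarith
    · by_cases h : ∃ j < q, (σ ^ (j : ℤ)) z ∈ Y₀
      · exact Or.inl h
      have h0 := Nat.mod_lt (Nat.find (ex z)) hq
      have h2 := Nat.mod_le (Nat.find (ex z)) q
      have h3 : ∀ k : ℕ, 0 < k → k < q →
          (σ ^ (k : ℤ)) ((σ ^ (-((Nat.find (ex z) % q : ℕ) : ℤ))) z) ∉ Y₀ := by
        intro k k0 k1
        rw [hrk_add, ← sub_eq_add_neg]
        rcases le_total k (Nat.find (ex z) % q) with h4 | h4
        · rw [← neg_sub, ← Nat.cast_sub h4]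
          exact Nat.find_min (ex z) (by omega)
        · rw [← Nat.cast_sub h4]
          exact fun h5 => h ⟨_, by omega, h5⟩
      refine Or.inr ⟨_, h0, ?_, h3⟩
      have h4 := key (Nat.find (ex z) % q) _ fun k k0 k1 => h3 k k0 (k1.trans_lt h0)
      have h5 : ∀ i : ℤ, (σ ^ i) ((σ ^ (-i)) z) = z := fun i => by
        rw [hrk_add, add_neg_cancel, zpow_zero, Homeomorph.one_apply]
      rw [h5] at h4
      rw [Nat.eq_sub_of_add_eq h4.symm]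
      exact Nat.dvd_sub_mod _

end Vale.Agent.P093
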