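import Vale.Agent.P093H.Defs

/-! P093H Bas (TASK). Basic facts. Helper names start with `hba_`.
`exists_lc`: every `z` has a clopen neighbourhood inside `O z` (`nhds_basis_isClopen`-type lemma, `isTopologicalBasis_isClopen`, `compact_exists_isClopen_in_isOpen`), finitely many of them cover (`IsCompact.elim_nhds_subcover`); list them `z 0, …, z (n - 1)` and let `c z` be the first one containing `z` (`Nat.find`), or use `TopologicalSpace.IsOpenCover.exists_finite_nonempty_disjoint_clopen_cover`; `IsLocallyConstant.iff_eventually_eq`.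
`lc_cont`: `continuous_iff_continuousAt`, `IsLocallyConstant.eventually_eq`, `ContinuousAt.congr`.
`Hole.zpow_*`: integer induction (`zpow_add_one`, `zpow_sub_one`, `Homeomorph.mul_apply`; apply the hypothesis to `h.symm x`).
`Hole.compact`: the set is closed: its complement is open, a point with `σ ^ i z ∉ F`, `x i ≠ v (σ ^ i z)` has such a neighbourhood (`ContinuousOn.continuousAt`, `ContinuousAt.eventually_ne`-type lemmas).
`Hole.base_min`: the projection to `Z` is continuous and onto (the point `(z, fun i => v (σ ^ i z))`), `DenseRange.comp`.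
`Hole.aper`: if `σ ^ n z = z` then the point `x = (z, fun i => v (σ ^ i z))` has `h ^ n x = x`, its orbit is finite (`Int.emod_add_mul_ediv`, `Function.Periodic`), closed and dense, so the space is finite. -/

open Filter Topology Set

noncomputable section

namespace Vale.Agent.P093

theorem exists_lc {Z : Type} [TopologicalSpace Z] [CompactSpace Z] [T2Space Z]
    [TotallyDisconnectedSpace Z] {O : Z → Set Z} (hO : ∀ z, O z ∈ 𝓝 z) :
    ∃ c : Z → Z, IsLocallyConstant c ∧ ∀ z, z ∈ O (c z) := by
  choose U hU1 hU2 hU3 using fun z => compact_exists_isClopen_in_isOpen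
    (isOpen_interior (s := O z)) (mem_interior_iff_mem_nhds.2 (hO z))
  obtain ⟨t, -, ht⟩ := isCompact_univ.elim_nhds_subcover U fun z _ => (hU1 z).isOpen.mem_nhds (hU2 z)
  have h1 : ∀ z, ∃ a, a ∈ t ∧ z ∈ U a := fun z => by simpa using ht (mem_univ z)
  have h2 : ∀ (P Q : Z → Prop) (hP : ∃ a, P a) (hQ : ∃ a, Q a), P = Q →
      Classical.choose hP = Classical.choose hQ := by
    rintro P Q hP hQ rfl
    rfl
  refine ⟨fun z => Classical.choose (h1 z), (IsLocallyConstant.iff_eventually_eq _).2 fun z => ?_,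
    fun z => interior_subset (hU3 _ (Classical.choose_spec (h1 z)).2)⟩
  have h3 : ∀ a, ∀ᶠ w in 𝓝 z, (w ∈ U a ↔ z ∈ U a) := fun a => by
    by_cases hz : z ∈ U a
    · filter_upwards [(hU1 a).isOpen.mem_nhds hz] with w hw using iff_of_true hw hz
    · filter_upwards [(hU1 a).compl.isOpen.mem_nhds hz] with w hw using iff_of_false hw hz
  filter_upwards [(Finset.eventually_all t).2 fun a _ => h3 a] with w hw
  exact h2 _ _ _ _ (funext fun a => propext (and_congr_right (hw a)))

theorem lc_cont {X A B : Type} [TopologicalSpace X] [TopologicalSpace B] {T : X → A}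
    (hT : IsLocallyConstant T) {G : A → X → B} (hG : ∀ a, Continuous (G a)) :
    Continuous fun x => G (T x) x := by
  refine continuous_iff_continuousAt.2 fun x => (hG (T x)).continuousAt.congr ?_
  filter_upwards [hT.eventually_eq x] with y hy
  rw [hy]

variable {Z K : Type} [MetricSpace Z] [MetricSpace K] {σ : Z ≃ₜ Z} {F : Set Z} {v : Z → K}
  {h : holeSet σ F v ≃ₜ holeSet σ F v}

theorem Hole.zpow_fst (H : Hole σ F v h) (n : ℤ) (x : holeSet σ F v) :
    ((h ^ n) x).1.1 = (σ ^ n) x.1.1 := by
  induction n using Int.induction_on generalizing x with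
  | zero => rfl
  | succ n ih => rw [zpow_add_one, zpow_add_one, Homeomorph.mul_apply, Homeomorph.mul_apply, ih, H.fst]
  | pred n ih =>
    have h1 := H.fst (h.symm x)
    rw [h.apply_symm_apply] at h1
    rw [zpow_sub_one, zpow_sub_one, Homeomorph.mul_apply, Homeomorph.mul_apply, ih,
      Homeomorph.inv_apply, Homeomorph.inv_apply, h1, σ.symm_apply_apply]

theorem Hole.zpow_snd (H : Hole σ F v h) (n : ℤ) (x : holeSet σ F v) (i : ℤ) :
    ((h ^ n) x).1.2 i = x.1.2 (i + n) := by
  induction n using Int.induction_on generalizing x with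
  | zero =>
    rw [add_zero]
    rfl
  | succ n ih => rw [zpow_add_one, Homeomorph.mul_apply, ih, H.snd, add_assoc]
  | pred n ih =>
    have h1 := H.snd (h.symm x) (i + (-n - 1))
    rw [h.apply_symm_apply] at h1
    rw [zpow_sub_one, Homeomorph.mul_apply, ih, Homeomorph.inv_apply]
    rw [show i + (-(n : ℤ) - 1) + 1 = i + -n by ring] at h1
    exact h1.symm

theorem Hole.iter (_H : Hole σ F v h) (n : ℕ) (x : holeSet σ F v) :
    h^[n] x = (h ^ (n : ℤ)) x := by
  rw [zpow_natCast]
  induction n generalizing x with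
  | zero => rfl
  | succ n ih => rw [Function.iterate_succ_apply, pow_succ, Homeomorph.mul_apply, ih]

theorem Hole.compact [CompactSpace Z] [CompactSpace K] (H : Hole σ F v h) :
    CompactSpace (holeSet σ F v) := by
  refine isCompact_iff_compactSpace.1 (IsClosed.isCompact ?_)
  rw [← isOpen_compl_iff, isOpen_iff_mem_nhds]
  intro x hx
  simp only [holeSet, mem_compl_iff, mem_ofPred_eq, not_forall] at hx
  obtain ⟨i, h1, h2⟩ := hx
  have c1 : ContinuousAt (fun y : Z × (ℤ → K) => (σ ^ i) y.1) x := by fun_prop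
  have c2 : ContinuousAt v ((σ ^ i) x.1) :=
    H.cont.continuousAt (H.closed.isOpen_compl.mem_nhds h1)
  have c3 : ContinuousAt (fun y : Z × (ℤ → K) => y.2 i) x := by fun_prop
  have c4 : ContinuousAt (fun y : Z × (ℤ → K) => v ((σ ^ i) y.1)) x :=
    ContinuousAt.comp (f := fun y : Z × (ℤ → K) => (σ ^ i) y.1) c2 c1
  filter_upwards [c1.preimage_mem_nhds (H.closed.isOpen_compl.mem_nhds h1),
    (c3.ne_iff_eventually_ne c4).1 h2] with y h3 h4 h5
  exact h4 (h5 i h3)

theorem Hole.base_min (H : Hole σ F v h) (z : Z) : Dense (range fun n : ℤ => (σ ^ n) z) := by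
  have h1 : Function.Surjective fun x : holeSet σ F v => x.1.1 := fun w =>
    ⟨⟨(w, fun i => v ((σ ^ i) w)), fun _ _ => rfl⟩, rfl⟩
  have h2 := DenseRange.comp h1.denseRange
    (H.min ⟨(z, fun i => v ((σ ^ i) z)), fun _ _ => rfl⟩) (by fun_prop)
  have e : (fun n : ℤ => (σ ^ n) z) = (fun x : holeSet σ F v => x.1.1) ∘
      fun n : ℤ => (h ^ n) ⟨(z, fun i => v ((σ ^ i) z)), fun _ _ => rfl⟩ :=
    funext fun n => (H.zpow_fst n ⟨(z, fun i => v ((σ ^ i) z)), fun _ _ => rfl⟩).symm
  rw [e]
  exact h2

theorem Hole.aper (H : Hole σ F v h) [Infinite (holeSet σ F v)] (z : Z) {n : ℤ} (hn : n ≠ 0) :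
    (σ ^ n) z ≠ z := by
  intro hz
  obtain ⟨x, hx1, hx2⟩ : ∃ x : holeSet σ F v, x.1.1 = z ∧ ∀ i, x.1.2 i = v ((σ ^ i) z) :=
    ⟨⟨(z, fun i => v ((σ ^ i) z)), fun _ _ => rfl⟩, rfl, fun _ => rfl⟩
  have h1 : (h ^ n) x = x := by
    refine Subtype.ext (Prod.ext ?_ (funext fun i => ?_))
    · rw [H.zpow_fst, hx1, hz]
    · rw [H.zpow_snd, hx2, hx2, zpow_add, Homeomorph.mul_apply, hz]
  have h2 : Function.Periodic (fun m : ℤ => (h ^ m) x) n := fun m => by
    simp only [zpow_add, Homeomorph.mul_apply, h1]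
  have h3 : Function.Periodic (fun m : ℤ => (h ^ m) x) |n| := by
    rcases abs_choice n with e | e <;> rw [e]
    exacts [h2, h2.neg]
  have h4 : (range fun m : ℤ => (h ^ m) x).Finite := by
    rw [← h3.image_Ioc (abs_pos.2 hn) 0]
    exact (finite_Ioc _ _).image _
  have h5 := (H.min x).closure_eq
  rw [h4.isClosed.closure_eq] at h5
  rw [h5] at h4
  exact infinite_univ h4

end Vale.Agent.P093
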