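import Mathlib

/-! P093H: extensions with holes. -/

namespace Vale.Agent.P093

/-- The pairs `(z, x)` with `x i = v (σ ^ i z)` whenever `σ ^ i z ∉ F`. -/
def holeSet {Z K : Type} [TopologicalSpace Z] (σ : Z ≃ₜ Z) (F : Set Z) (v : Z → K) :
    Set (Z × (ℤ → K)) :=
  {x | ∀ i : ℤ, (σ ^ i) x.1 ∉ F → x.2 i = v ((σ ^ i) x.1)}

end Vale.Agent.P093
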