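import Vale.Agent.P093.Defs
import Vale.Agent.P093H.Stmt

/-! P093H: definitions used in the proof (no task here). -/

open Filter Topology Set

noncomputable section

namespace Vale.Agent.P093

section

variable {Z : Type} [TopologicalSpace Z]

open Classical in
/-- The number of visits to `F` at the times `0, …, N - 1`. -/
def cnt (σ : Z ≃ₜ Z) (F : Set Z) (z : Z) (N : ℕ) : ℕ :=
  ((Finset.range N).filter fun i : ℕ => (σ ^ (i : ℤ)) z ∈ F).card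

/-- The largest number of visits. -/
def mx (σ : Z ≃ₜ Z) (F : Set Z) (N : ℕ) : ℕ := ⨆ z, cnt σ F z N

/-- The orbit capacity. -/
def cap (σ : Z ≃ₜ Z) (F : Set Z) : ℝ := ⨅ n : ℕ, (mx σ F (n + 1) : ℝ) / (n + 1)

/-- `Y` is the clopen base of a tower of height `q` which fills most of every orbit. -/
structure Tower (σ : Z ≃ₜ Z) (q : ℕ) (ε : ℝ) (Y : Set Z) : Prop where
  clopen : IsClopen Y
  disj : ∀ z ∈ Y, ∀ i : ℕ, 0 < i → i < q → (σ ^ (i : ℤ)) z ∉ Y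
  fill : ∃ C : ℝ, ∀ z (N : ℕ), (1 - ε) * N ≤ q * cnt σ Y z N + C

/-- The standing hypotheses. -/
structure Hole {K : Type} [TopologicalSpace K] (σ : Z ≃ₜ Z) (F : Set Z) (v : Z → K)
    (h : holeSet σ F v ≃ₜ holeSet σ F v) : Prop where
  closed : IsClosed F
  cont : ContinuousOn v Fᶜ
  fst : ∀ x, (h x).1.1 = σ x.1.1
  snd : ∀ x i, (h x).1.2 i = x.1.2 (i + 1)
  min : ∀ x, Dense (range fun n : ℤ => (h ^ n) x)

end

/-- Products of spheres along long orbit segments, at the visits to a clopen set. -/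
structure MarkH {X : Type} [TopologicalSpace X] (h : X ≃ₜ X) (p : ℕ) (θ : ℝ) {L : Type}
    (Y : Set X) (ρ : L → X → Fin 3 → ℝ) : Prop where
  clopen : IsClopen Y
  cont : ∀ i, Continuous (ρ i)
  ball : ∀ i x, ∑ c, ρ i x c ^ 2 ≤ 1
  avg : ∃ C : ℝ, ∀ x (N : ℕ), θ * N ≤ cnt h Y x N + C
  cube : ∀ C : ℕ, ∃ (N : ℕ) (V : Finset (Fin N)) (Bad : Finset (Fin N × L))
    (φ : (Fin N × L → S2) → X), Continuous φ ∧
    (∀ ω, ∀ s ∈ V, (h ^ ((s : ℕ) : ℤ)) (φ ω) ∈ Y) ∧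
    (∀ ω γ, γ ∉ Bad → (h ^ ((γ.1 : ℕ) : ℤ)) (φ ω) ∈ Y →
      ρ γ.2 ((h ^ ((γ.1 : ℕ) : ℤ)) (φ ω)) = (ω γ).1) ∧
    4 * Bad.card + C < V.card * p

end Vale.Agent.P093
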