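import Vale.Agent.P093.Grp
import Vale.Agent.P093H.Bas
import Vale.Agent.P093H.Cnt

/-! P093H Grp (TASK). Grouping of the free coordinates; a port of `Pat.mark` in `Vale/Agent/P093/Grp.lean` (use `grp_ext`, `grp_cont`, `exists_emb`). Helper names start with `hgr_`.
`exists_T`: `O z₀ = {z | ∀ i < q, σ ^ i z₀ ∉ F → σ ^ i z ∉ F}` is a neighbourhood of `z₀`, `exists_lc` gives `c`; `T z` = a superset of cardinality `mx σ F q` inside `range q` of the visits of `c z` (`Finset.exists_subsuperset_card_eq`, `cnt_le_mx`, `mx_le`), chosen as a function of `c z` (`IsLocallyConstant.comp`).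
`Hole.mark`: `m = mx σ F q`. For every `z` choose `ι (T z) : Fin G × Fin (2 t + 1) → ℕ × Fin k` injective with first components in `T z` (as a function `ι` of the finset: for `S` with `card S = m` from `Function.Embedding.nonempty_of_card_le`, otherwise arbitrary; `0 < k`). `ρ (γ, i) x = r (fun a => f (x.1.2 (ι (T x.1.1) (γ, a)).1) (ι (T x.1.1) (γ, a)).2) i` (`lc_cont`).
`avg`: `cnt h _ x N = cnt σ Y x.1.1 N` (`Hole.zpow_fst`). `cube`: for `N` take `z` with `cnt σ F z N = mx σ F N ≥ cap * N`, `V` = all `s : Fin N` with `σ ^ s z ∈ Y` (`card V = cnt σ Y z N`), `κ (s, γ, a) = (s + (ι (T (σ ^ s z)) (γ, a)).1, (ι _ (γ, a)).2) : ℤ × Fin k` on `V × Fin G × Fin (2 t + 1)` is injective (`Tower.disj`); `w ω i c = Function.extend κ (fun b => j (fun i => ω (b.1, b.2.1, i)) b.2.2) 0 (i, c)`, `φ ω = ⟨(z, fun i => if σ ^ i z ∈ F then e (w ω i) else v (σ ^ i z)), _⟩`.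
`Bad` = image of the `(b, i)` with `σ ^ (κ b).1 z ∉ F`; `card Bad ≤ (k t) * card NF`, `NF` the set of `free_count`. With `n = card V`: `card NF ≤ N + q - cap N - (q - m) n`, `(1 - ε) N ≤ q n + C₀`, `m ≤ q`, `m ≤ (cap + ε) q` give `card NF ≤ 2 ε N + q + C₀` (`hgr_num`), and `q n p ≥ p (N / 2 - C₀)`, `16 t k ε q < p`; take `N` large (`exists_nat_gt`). -/

open Filter Topology Set

noncomputable section

namespace Vale.Agent.P093

variable {Z K : Type} [MetricSpace Z] [CompactSpace Z] [TotallyDisconnectedSpace Z]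
  [MetricSpace K] [CompactSpace K] {σ : Z ≃ₜ Z} {F : Set Z} {v : Z → K}
  {h : holeSet σ F v ≃ₜ holeSet σ F v} {k : ℕ}

theorem hgr_num {D N n q m c ε C₀ a : ℝ} (hq : 0 < q) (hN : 0 ≤ N) (hm0 : 0 ≤ m) (hmq : m ≤ q)
    (hε : 0 < ε) (hC : 0 ≤ C₀) (hm : m ≤ (c + ε) * q) (ha : c * N ≤ a)
    (h1 : D + a + q * n ≤ m * n + N + q) (h2 : (1 - ε) * N ≤ q * n + C₀) :
    D ≤ 2 * ε * N + q + C₀ := by
  refine le_of_mul_le_mul_left ?_ hq
  have a1 := mul_le_mul_of_nonneg_left h1 hq.le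
  have a2 := mul_le_mul_of_nonneg_left h2 (sub_nonneg.2 hmq)
  have a3 := mul_le_mul_of_nonneg_left ha hq.le
  have a4 := mul_le_mul_of_nonneg_right hm hN
  have a5 := mul_nonneg hm0 hC
  have a6 := mul_nonneg (mul_nonneg hm0 hε.le) hN
  linarith

theorem hgr_sep {Z : Type} [TopologicalSpace Z] {σ : Z ≃ₜ Z} {Y : Set Z} {q : ℕ}
    (hY : ∀ z ∈ Y, ∀ i : ℕ, 0 < i → i < q → (σ ^ (i : ℤ)) z ∉ Y) {z : Z} {s s' : ℕ}
    (hs : (σ ^ (s : ℤ)) z ∈ Y) (hs' : (σ ^ (s' : ℤ)) z ∈ Y) (h : s' < s + q) : s' ≤ s := by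
  by_contra h1
  obtain ⟨i, rfl⟩ : ∃ i, s' = i + s := ⟨s' - s, by omega⟩
  refine hY _ hs i (by omega) (by omega) ?_
  rwa [Nat.cast_add, zpow_add, Homeomorph.mul_apply] at hs'

theorem exists_T (hF : IsClosed F) (q : ℕ) :
    ∃ T : Z → Finset ℕ, IsLocallyConstant T ∧ (∀ z, T z ⊆ Finset.range q) ∧
      (∀ z, (T z).card = mx σ F q) ∧ ∀ z, ∀ i < q, (σ ^ (i : ℤ)) z ∈ F → i ∈ T z := by
  classical
  have hO : ∀ z₀ : Z, {z | ∀ i ∈ Finset.range q, (σ ^ (i : ℤ)) z₀ ∉ F → (σ ^ (i : ℤ)) z ∉ F}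
      ∈ 𝓝 z₀ := by
    intro z₀
    refine (Filter.eventually_all_finset (Finset.range q)).2 fun i _ => ?_
    by_cases hi : (σ ^ (i : ℤ)) z₀ ∈ F
    · exact Eventually.of_forall fun z hz => absurd hi hz
    · exact Filter.Eventually.mono ((σ ^ (i : ℤ)).continuous.continuousAt.preimage_mem_nhds
        (hF.isOpen_compl.mem_nhds hi)) fun z hz _ => hz
  obtain ⟨c, hc, hz⟩ := exists_lc hO
  have hS : ∀ z₀ : Z, ∃ S : Finset ℕ, S ⊆ Finset.range q ∧ S.card = mx σ F q ∧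
      ∀ i < q, (σ ^ (i : ℤ)) z₀ ∈ F → i ∈ S := by
    intro z₀
    have h1 := cnt_le_mx (σ := σ) (F := F) z₀ q
    rw [cnt] at h1
    obtain ⟨S, h2, h3, h4⟩ := Finset.exists_subsuperset_card_eq (Finset.filter_subset _ _) h1
      (by rw [Finset.card_range]; exact mx_le q)
    exact ⟨S, h3, h4, fun i hi hi' => h2 (Finset.mem_filter.2 ⟨Finset.mem_range.2 hi, hi'⟩)⟩
  choose S h1 h2 h3 using hS
  refine ⟨S ∘ c, hc.comp S, fun z => h1 _, fun z => h2 _, fun z i hi hi' => h3 _ i hi ?_⟩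
  by_contra h4
  exact hz z i (Finset.mem_range.2 hi) h4 hi'

theorem Hole.mark [Nonempty Z] (H : Hole σ F v h) {e : (Fin k → unitInterval) → K}
    (he : Continuous e) (he' : Function.Injective e) (hk : 0 < k) {q : ℕ} (hq : 0 < q) {ε : ℝ}
    (hε : 0 < ε) (hε' : ε ≤ 1 / 2) {Y : Set Z} (hY : Tower σ q ε Y)
    (hm : (mx σ F q : ℝ) ≤ (cap σ F + ε) * q) {t G p : ℕ}
    (hG : G * (2 * t + 1) ≤ mx σ F q * k) (hp : 16 * t * k * ε * q < p) :
    ∃ ρ : Fin G × Fin t → holeSet σ F v → Fin 3 → ℝ,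
      MarkH h p ((1 - ε) / q) {x | x.1.1 ∈ Y} ρ := by
  classical
  obtain ⟨f, hf, hfe⟩ := grp_ext he he'
  obtain ⟨T, hT, hTq, hTm, hTF⟩ := exists_T (σ := σ) H.closed q
  have hι : ∀ S : Finset ℕ, ∃ ι : Fin G × Fin (2 * t + 1) → ℕ × Fin k, S.card = mx σ F q →
      Function.Injective ι ∧ ∀ b, (ι b).1 ∈ S := by
    intro S
    by_cases hS : S.card = mx σ F q
    · obtain ⟨ι⟩ : Nonempty (Fin G × Fin (2 * t + 1) ↪ S × Fin k) :=
        Function.Embedding.nonempty_of_card_le (by simpa [hS] using hG)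
      exact ⟨fun b => ((ι b).1, (ι b).2), fun _ => ⟨fun b b' hb => ι.injective
        (Prod.ext (Subtype.ext (Prod.ext_iff.1 hb).1) (Prod.ext_iff.1 hb).2),
          fun b => (ι b).1.2⟩⟩
    · exact ⟨fun _ => (0, ⟨0, hk⟩), fun h' => absurd h' hS⟩
  choose ι hι using hι
  have hιi : ∀ z, Function.Injective (ι (T z)) := fun z => (hι _ (hTm z)).1
  have hιT : ∀ z b, (ι (T z) b).1 ∈ T z := fun z => (hι _ (hTm z)).2
  have hιq : ∀ z b, (ι (T z) b).1 < q := fun z b => Finset.mem_range.1 (hTq z (hιT z b))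
  obtain ⟨j, r, hj, hr, hr1, hrj⟩ := exists_emb t
  obtain ⟨C₁, hC₁⟩ := hY.fill
  obtain ⟨C₀, hC0, hC⟩ : ∃ C₀ : ℝ, 0 ≤ C₀ ∧ ∀ z (N : ℕ), (1 - ε) * N ≤ q * cnt σ Y z N + C₀ :=
    ⟨|C₁|, abs_nonneg _, fun z N => (hC₁ z N).trans (add_le_add le_rfl (le_abs_self _))⟩
  have hq' : (0 : ℝ) < q := Nat.cast_pos.2 hq
  have hπ : Continuous fun x : holeSet σ F v => x.1.1 := continuous_fst.comp continuous_subtype_val
  refine ⟨fun γ x => r (fun a => f (x.1.2 ((ι (T x.1.1) (γ.1, a)).1 : ℕ)) (ι (T x.1.1) (γ.1, a)).2)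
    γ.2, hY.clopen.preimage hπ, fun γ => ?_, fun γ x => hr1 _ _, ⟨C₀ / q, fun x N => ?_⟩,
    fun C => ?_⟩
  · refine lc_cont (T := fun x : holeSet σ F v => T x.1.1) (hT.comp_continuous hπ)
      (G := fun S (x : holeSet σ F v) =>
        r (fun a => f (x.1.2 ((ι S (γ.1, a)).1 : ℕ)) (ι S (γ.1, a)).2) γ.2) fun S => ?_
    refine (continuous_apply γ.2).comp (hr.comp (continuous_pi fun a => ?_))
    exact (continuous_apply _).comp (hf.comp ((continuous_apply _).comp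
      (continuous_snd.comp continuous_subtype_val)))
  · have h1 : cnt h {x | x.1.1 ∈ Y} x N = cnt σ Y x.1.1 N := by
      unfold cnt
      refine congrArg Finset.card (Finset.ext fun i => ?_)
      simp only [Finset.mem_filter, mem_ofPred_eq, H.zpow_fst]
    rw [h1, div_mul_eq_mul_div, div_le_iff₀ hq', add_mul, div_mul_cancel₀ _ hq'.ne']
    linarith [hC x.1.1 N]
  obtain ⟨N, hN⟩ := exists_nat_gt
    (2 * (q * (4 * (k * t) * (q + C₀) + C) + p * C₀) / (p - 16 * t * k * ε * q))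
  rw [div_lt_iff₀ (sub_pos.2 hp)] at hN
  obtain ⟨z, hz⟩ := exists_cnt_eq (σ := σ) (F := F) N
  let κ : {s : Fin N // (σ ^ ((s : ℕ) : ℤ)) z ∈ Y} × Fin G × Fin (2 * t + 1) → ℤ × Fin k :=
    fun b => (((b.1.1 : ℕ) : ℤ) + ((ι (T ((σ ^ ((b.1.1 : ℕ) : ℤ)) z)) b.2).1 : ℕ),
      (ι (T ((σ ^ ((b.1.1 : ℕ) : ℤ)) z)) b.2).2)
  have hκ : Function.Injective κ := by
    rintro ⟨s, b⟩ ⟨s', b'⟩ hb
    have h1 : (s.1 : ℕ) + (ι (T ((σ ^ ((s.1 : ℕ) : ℤ)) z)) b).1 =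
        s'.1 + (ι (T ((σ ^ ((s'.1 : ℕ) : ℤ)) z)) b').1 := by
      have h0 : (κ (s, b)).1 = (κ (s', b')).1 := congrArg Prod.fst hb
      simp only [κ] at h0
      exact_mod_cast h0
    have h2 := hιq ((σ ^ ((s.1 : ℕ) : ℤ)) z) b
    have h3 := hιq ((σ ^ ((s'.1 : ℕ) : ℤ)) z) b'
    have h4 := hgr_sep hY.disj s.2 s'.2 (by omega)
    have h5 := hgr_sep hY.disj s'.2 s.2 (by omega)
    obtain rfl : s = s' := Subtype.ext (Fin.ext (le_antisymm h5 h4))
    have h6 : (κ (s, b)).2 = (κ (s, b')).2 := congrArg Prod.snd hb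
    exact Prod.ext rfl (hιi _ (Prod.ext (Nat.add_left_cancel h1) h6))
  let w : (Fin N × Fin G × Fin t → S2) → ℤ → Fin k → unitInterval := fun ω i c =>
    Function.extend κ (fun b => j (fun i => ω (b.1.1, b.2.1, i)) b.2.2) 0 (i, c)
  have hw : ∀ i, Continuous fun ω => w ω i := fun i => continuous_pi fun c =>
    grp_cont hκ (F := fun (ω : Fin N × Fin G × Fin t → S2) b =>
      j (fun i => ω (b.1.1, b.2.1, i)) b.2.2) (fun b => by fun_prop) 0 (i, c)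
  let B : Finset (({s : Fin N // (σ ^ ((s : ℕ) : ℤ)) z ∈ Y} × Fin G × Fin (2 * t + 1)) × Fin t) :=
    Finset.univ.filter fun b => (σ ^ (κ b.1).1) z ∉ F
  let φ : (Fin N × Fin G × Fin t → S2) → holeSet σ F v := fun ω =>
    ⟨(z, fun i => if (σ ^ i) z ∈ F then e (w ω i) else v ((σ ^ i) z)), fun i hi => if_neg hi⟩
  refine ⟨N, Finset.univ.filter fun s : Fin N => (σ ^ ((s : ℕ) : ℤ)) z ∈ Y,
    B.image fun b => (b.1.1.1, b.1.2.1, b.2), φ, ?_, fun ω s hs => ?_, fun ω γ hγ hs => ?_, ?_⟩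
  · refine Continuous.subtype_mk (continuous_const.prodMk (continuous_pi fun i => ?_)) _
    split_ifs
    · exact he.comp (hw i)
    · exact continuous_const
  · rw [mem_ofPred_eq, H.zpow_fst]
    exact (Finset.mem_filter.1 hs).2
  · have h0 : ((h ^ ((γ.1 : ℕ) : ℤ)) (φ ω)).1.1 = (σ ^ ((γ.1 : ℕ) : ℤ)) z := H.zpow_fst _ _
    rw [mem_ofPred_eq, h0] at hs
    refine Eq.trans (congrArg (fun y => r y γ.2.2) (funext fun a => ?_))
      (hrj (fun i => ω (γ.1, γ.2.1, i)) γ.2.2)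
    have h1 : (σ ^ (κ (⟨γ.1, hs⟩, γ.2.1, a)).1) z ∈ F := by
      by_contra h2
      exact hγ (Finset.mem_image.2 ⟨((⟨γ.1, hs⟩, γ.2.1, a), γ.2.2),
        Finset.mem_filter.2 ⟨Finset.mem_univ _, h2⟩, rfl⟩)
    have h2 : (φ ω).1.2 (κ (⟨γ.1, hs⟩, γ.2.1, a)).1 = e (w ω (κ (⟨γ.1, hs⟩, γ.2.1, a)).1) :=
      if_pos h1
    rw [H.zpow_snd, h0, add_comm]
    refine (congrFun (congrArg f h2) _).trans ((hfe _ _).trans ?_)
    exact congrArg Subtype.val (hκ.extend_apply _ _ (⟨γ.1, hs⟩, γ.2.1, a))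
  · have h0 := free_count hY.disj hTq hTm hTF z N
    have h1 : B.card ≤ (((Finset.range N ×ˢ Finset.range q).filter fun a : ℕ × ℕ =>
        (σ ^ (a.1 : ℤ)) z ∈ Y ∧ a.2 ∈ T ((σ ^ (a.1 : ℤ)) z) ∧ (σ ^ ((a.1 : ℤ) + a.2)) z ∉ F) ×ˢ
          (Finset.univ : Finset (Fin k × Fin t))).card := by
      refine Finset.card_le_card_of_injOn
        (fun b => (((b.1.1.1 : ℕ), (ι (T ((σ ^ ((b.1.1.1 : ℕ) : ℤ)) z)) b.1.2).1), (κ b.1).2, b.2))
        (fun b hb => ?_) ?_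
      · exact Finset.mem_coe.2 (Finset.mem_product.2 ⟨Finset.mem_filter.2
          ⟨Finset.mem_product.2 ⟨Finset.mem_range.2 b.1.1.1.2, Finset.mem_range.2 (hιq _ _)⟩,
            b.1.1.2, hιT _ _, (Finset.mem_filter.1 (Finset.mem_coe.1 hb)).2⟩, Finset.mem_univ _⟩)
      · intro b _ b' _ hb
        simp only [Prod.mk.injEq] at hb
        refine Prod.ext (hκ (Prod.ext ?_ hb.2.1)) hb.2.2
        exact congrArg₂ (fun x y : ℕ => (x : ℤ) + y) hb.1.1 hb.1.2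
    have h2 := (Finset.card_image_le (f := fun b => (b.1.1.1, b.1.2.1, b.2))).trans h1
    rw [Finset.card_product, Finset.card_univ, Fintype.card_prod, Fintype.card_fin,
      Fintype.card_fin] at h2
    have h3 := (Nat.cast_le (α := ℝ)).2 h2
    have h4 := (Nat.cast_le (α := ℝ)).2 h0
    push_cast at h3 h4
    have h5 := hgr_num hq' (Nat.cast_nonneg N) (Nat.cast_nonneg _) (Nat.cast_le.2 (mx_le q)) hε hC0
      hm (hz ▸ cap_mul_le N) h4 (hC z N)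
    have h6 : (Finset.univ.filter fun s : Fin N => (σ ^ ((s : ℕ) : ℤ)) z ∈ Y).card =
        cnt σ Y z N := by
      rw [cnt, Finset.card_filter, Finset.card_filter]
      exact Fin.sum_univ_eq_sum_range (fun i : ℕ => if (σ ^ (i : ℤ)) z ∈ Y then 1 else 0) N
    rw [h6]
    refine (Nat.cast_lt (α := ℝ)).1 (lt_of_mul_lt_mul_left ?_ hq'.le)
    have h7 := mul_le_mul_of_nonneg_left
      (h3.trans (mul_le_mul_of_nonneg_right h5 (by positivity))) hq'.le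
    have h8 := mul_le_mul_of_nonneg_left (hC z N) (Nat.cast_nonneg (α := ℝ) p)
    have h9 := mul_le_mul_of_nonneg_left hε' (by positivity : (0 : ℝ) ≤ p * N)
    push_cast
    linarith

end Vale.Agent.P093
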