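import Vale.Agent.P093.MdA
import Vale.Agent.P093H.Bas
import Vale.Agent.P093H.Cnt

/-! P093H Md (TASK). The upper bound for the mean dimension; a port of `Vale/Agent/P093/Md.lean` and of `exists_bumps` in `P093/MdA.lean`. Helper names start with `hmd_`.
`exists_bumps'`: copy the proof of `exists_bumps`, the cover is the one by balls.
`hmd_leb` (helper, as `md_leb`): for a finite open cover `𝒰` there are `R : ℕ`, `ε > 0` such that for every `x` some `U ∈ 𝒰` contains all `x'` with `dist x.1.1 x'.1.1 < ε` and `dist (x.1.2 i) (x'.1.2 i) < ε` for `|i| ≤ R`.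
`hole_ord`: for `N` put `N' = N + 2 R + 1`, `τ i = σ ^ (i - R)` for `i < N'`. `O z₀` = all `z` with `dist (τ i z) (τ i z₀) < ε / 2` for all `i < N'` and, for all `i < N'` with `τ i z₀ ∉ F`, `τ i z ∉ F` and `dist (v (τ i z)) (v (τ i z₀)) < ε / 2`; it is a neighbourhood of `z₀`. `exists_lc` gives `c` (finite range: `IsLocallyConstant.range_finite`). Apply `leastOrd_le` with `B = {0, 1}`, `Λ' = range c ⊕ Fin N' × Λ`, `ψ' (inl z₀) x = if c x.1.1 = z₀ then 1 else 0`, `ψ' (inr (i, l)) x = if τ i (c x.1.1) ∈ F then ψ l (x.1.2 (i - R)) else 0` (`lc_cont`); at most `k * cnt σ F (σ ^ (-R) (c x.1.1)) N'` values are not in `B`.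
`hole_limsup`: as `Pat.mdim_le_lev`, with `mx_upper`, then `ε → 0` (`ENNReal.le_of_forall_pos_le_add`). -/

open Filter Topology Set
open scoped ENNReal

noncomputable section

namespace Vale.Agent.P093

theorem exists_bumps' {K : Type} [MetricSpace K] [CompactSpace K] {ε : ℝ} (hε : 0 < ε) :
    ∃ (𝒲 : Set (Set K)) (Λ : Type) (_ : Finite Λ) (ψ : Λ → K → ℝ), IsCover 𝒲 ∧
      (∀ l, Continuous (ψ l)) ∧ (∀ c, ∃ l, ψ l c = 1) ∧
      (∀ c, {l | ψ l c ∉ ({0, 1} : Set ℝ)}.ncard ≤ leastOrd 𝒲) ∧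
      ∀ l c c', ψ l c = 1 → 0 < ψ l c' → dist c c' < ε := by
  obtain ⟨t, -, ht, hc⟩ := finite_cover_balls_of_compact (isCompact_univ (X := K)) (half_pos hε)
  have h𝒰 : IsCover ((fun x => Metric.ball x (ε / 2)) '' t) := by
    refine ⟨ht.image _, ?_, ?_⟩
    · rintro _ ⟨x, -, rfl⟩
      exact Metric.isOpen_ball
    · rw [sUnion_image]
      exact univ_subset_iff.1 hc
  have hne : {n | ∃ 𝒱 : Set (Set K), IsCover 𝒱 ∧
      (∀ V ∈ 𝒱, ∃ U ∈ (fun x => Metric.ball x (ε / 2)) '' t, V ⊆ U) ∧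
      ∀ x, {V ∈ 𝒱 | x ∈ V}.ncard ≤ n + 1}.Nonempty :=
    ⟨_, _, h𝒰, fun V hV => ⟨V, hV, subset_rfl⟩, fun x =>
      (ncard_le_ncard (sep_subset _ _) h𝒰.1).trans (Nat.le_succ _)⟩
  obtain ⟨𝒱, h𝒱, hr, ho⟩ := Nat.sInf_mem hne
  have : Finite 𝒱 := h𝒱.1
  obtain ⟨v, hv, -, hvc⟩ := exists_iUnion_eq_closure_subset (u := fun V : 𝒱 => (V : Set K))
    (fun V => h𝒱.2.1 V V.2) (fun x => toFinite _) (by rw [← sUnion_eq_iUnion]; exact h𝒱.2.2)
  have hf : ∀ V : 𝒱, ∃ f : C(K, ℝ), EqOn f 0 (V : Set K)ᶜ ∧ EqOn f 1 (closure (v V)) ∧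
      ∀ x, f x ∈ Icc (0 : ℝ) 1 := fun V =>
    exists_continuous_zero_one_of_isClosed (h𝒱.2.1 V V.2).isClosed_compl isClosed_closure
      (disjoint_compl_left_iff_subset.2 (hvc V))
  choose f h0 h1 _ using hf
  have hin : ∀ (V : 𝒱) c, f V c ≠ 0 → c ∈ (V : Set K) := fun V c h => by
    by_contra hn
    exact h (h0 V hn)
  have hone : ∀ c, ∃ V, f V c = 1 := fun c => by
    obtain ⟨V, hV⟩ := mem_iUnion.1 (hv.symm ▸ mem_univ c : c ∈ ⋃ V, v V)
    exact ⟨V, h1 V (subset_closure hV)⟩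
  refine ⟨_, 𝒱, inferInstance, fun V => f V, h𝒰, fun V => (f V).continuous, hone, fun c => ?_,
    fun V c c' h h' => ?_⟩
  · obtain ⟨V₀, hV₀⟩ := hone c
    have hs : insert V₀ {V : 𝒱 | f V c ∉ ({0, 1} : Set ℝ)} ⊆ {V : 𝒱 | c ∈ (V : Set K)} := by
      rintro V (rfl | hV)
      · exact hin _ c (by rw [hV₀]; exact one_ne_zero)
      · exact hin _ c fun h => hV (Or.inl h)
    have h2 : {V : 𝒱 | c ∈ (V : Set K)}.ncard ≤
        leastOrd ((fun x => Metric.ball x (ε / 2)) '' t) + 1 := by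
      rw [← ncard_image_of_injective _ Subtype.val_injective]
      refine (ncard_le_ncard ?_ (h𝒱.1.subset (sep_subset _ _))).trans (ho c)
      rintro _ ⟨V, hV, rfl⟩
      exact ⟨V.2, hV⟩
    have h3 := (ncard_le_ncard hs (toFinite _)).trans h2
    have h4 : V₀ ∉ {V : 𝒱 | f V c ∉ ({0, 1} : Set ℝ)} := fun h => h (Or.inr hV₀)
    rw [ncard_insert_of_notMem h4 (toFinite _)] at h3
    exact Nat.le_of_succ_le_succ h3
  · obtain ⟨_, ⟨x, -, rfl⟩, hx⟩ := hr V V.2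
    have a1 := hx (hin V c (h.trans_ne one_ne_zero))
    have a2 := hx (hin V c' h'.ne')
    rw [Metric.mem_ball] at a1 a2
    have := dist_triangle_right c c' x
    linarith

variable {Z K : Type} [MetricSpace Z] [CompactSpace Z] [TotallyDisconnectedSpace Z]
  [MetricSpace K] [CompactSpace K] {σ : Z ≃ₜ Z} {F : Set Z} {v : Z → K}
  {h : holeSet σ F v ≃ₜ holeSet σ F v}

omit [TotallyDisconnectedSpace Z] in
theorem hmd_leb (H : Hole σ F v h) {𝒰 : Set (Set (holeSet σ F v))} (hU : IsCover 𝒰) :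
    ∃ (R : ℕ) (ε : ℝ), 0 < ε ∧ ∀ x : holeSet σ F v, ∃ U ∈ 𝒰, ∀ x' : holeSet σ F v,
      (dist x.1.1 x'.1.1 < ε ∧ ∀ i : ℤ, |i| ≤ R → dist (x.1.2 i) (x'.1.2 i) < ε) → x' ∈ U := by
  have := H.compact
  by_contra hc
  have hc' : ∀ R : ℕ, ∃ x : holeSet σ F v, ∀ U ∈ 𝒰, ∃ x' : holeSet σ F v,
      (dist x.1.1 x'.1.1 < 1 / (R + 1) ∧
        ∀ i : ℤ, |i| ≤ R → dist (x.1.2 i) (x'.1.2 i) < 1 / (R + 1)) ∧ x' ∉ U := fun R => by
    by_contra h1
    refine hc ⟨R, 1 / (R + 1), Nat.one_div_pos_of_nat, fun x => ?_⟩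
    by_contra h2
    refine h1 ⟨x, fun U hU' => ?_⟩
    by_contra h3
    exact h2 ⟨U, hU', fun x' hx' => by_contra fun h4 => h3 ⟨x', hx', h4⟩⟩
  choose x hx using hc'
  obtain ⟨y, φ, hφ, hy⟩ := CompactSpace.tendsto_subseq x
  obtain ⟨U, hUm, hyU⟩ : y ∈ ⋃₀ 𝒰 := hU.2.2 ▸ mem_univ y
  choose x' h1 h2 using fun R => hx R U hUm
  have t0 := tendsto_one_div_add_atTop_nhds_zero_nat (𝕜 := ℝ).comp hφ.tendsto_atTop
  have t : Tendsto (x' ∘ φ) atTop (𝓝 y) := by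
    rw [tendsto_subtype_rng, Prod.tendsto_iff, tendsto_pi_nhds] at hy ⊢
    refine ⟨hy.1.congr_dist (squeeze_zero' (.of_forall fun _ => dist_nonneg)
      (.of_forall fun n => (h1 _).1.le) t0), fun i => ?_⟩
    refine (hy.2 i).congr_dist (squeeze_zero' (.of_forall fun _ => dist_nonneg) ?_ t0)
    filter_upwards [hφ.tendsto_atTop.eventually_ge_atTop i.natAbs] with n hn
    exact ((h1 _).2 i (by rw [Int.abs_eq_natAbs]; exact_mod_cast hn)).le
  exact h2 _ (t.eventually ((hU.2.1 U hUm).mem_nhds hyU)).exists.choose_spec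

omit [CompactSpace K] in
theorem hmd_lc (H : Hole σ F v h) {ι : Type} [Finite ι] (a : ι → ℤ) {ε : ℝ} (hε : 0 < ε) :
    ∃ c : Z → Z, IsLocallyConstant c ∧ ∀ z i, dist ((σ ^ a i) z) ((σ ^ a i) (c z)) < ε ∧
      ((σ ^ a i) (c z) ∉ F → (σ ^ a i) z ∉ F ∧
        dist (v ((σ ^ a i) z)) (v ((σ ^ a i) (c z))) < ε) := by
  refine exists_lc (O := fun z₀ => {z | ∀ i, dist ((σ ^ a i) z) ((σ ^ a i) z₀) < ε ∧
    ((σ ^ a i) z₀ ∉ F → (σ ^ a i) z ∉ F ∧ dist (v ((σ ^ a i) z)) (v ((σ ^ a i) z₀)) < ε)})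
    fun z₀ => ?_
  refine eventually_all.2 fun i => ?_
  have c0 : ContinuousAt (σ ^ a i) z₀ := (σ ^ a i).continuous.continuousAt
  refine (c0.eventually (Metric.ball_mem_nhds _ hε)).and ?_
  by_cases hF : (σ ^ a i) z₀ ∈ F
  · exact .of_forall fun z h' => absurd hF h'
  · have h1 : Fᶜ ∈ 𝓝 ((σ ^ a i) z₀) := H.closed.isOpen_compl.mem_nhds hF
    filter_upwards [c0.eventually h1,
      ((H.cont.continuousAt h1).comp c0).eventually (Metric.ball_mem_nhds _ hε)] with z h2 h3 _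
    exact ⟨h2, h3⟩

theorem hole_ord (H : Hole σ F v h) {𝒰 : Set (Set (holeSet σ F v))} (hU : IsCover 𝒰) :
    ∃ (𝒲 : Set (Set K)) (R : ℕ), IsCover 𝒲 ∧ ∀ N : ℕ,
      leastOrd (joinCov h 𝒰 N) ≤ leastOrd 𝒲 * mx σ F (N + 2 * R + 1) := by
  classical
  obtain ⟨R, ε, hε, hR⟩ := hmd_leb H hU
  obtain ⟨𝒲, Λ, _, ψ, c0, c1, c2, c3, c4⟩ := exists_bumps' (K := K) hε
  have := Fintype.ofFinite Λ
  refine ⟨𝒲, R, c0, fun N => ?_⟩
  obtain ⟨c, hc, hO⟩ := hmd_lc H (fun i : Fin (N + 2 * R + 1) => ((i : ℕ) : ℤ) - R) (half_pos hε)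
  have := hc.range_finite.to_subtype
  have hT : IsLocallyConstant fun x : holeSet σ F v => c x.1.1 :=
    hc.comp_continuous (continuous_fst.comp continuous_subtype_val)
  have ce : ∀ l i, Continuous fun x : holeSet σ F v => ψ l (x.1.2 i) := fun l i =>
    (c1 l).comp ((continuous_apply i).comp (continuous_snd.comp continuous_subtype_val))
  refine leastOrd_le (Λ := range c ⊕ Fin (N + 2 * R + 1) × Λ)
    (Sum.elim (fun z₀ x => if c x.1.1 = z₀ then 1 else 0) fun p x =>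
      if (σ ^ (((p.1 : ℕ) : ℤ) - R)) (c x.1.1) ∈ F then ψ p.2 (x.1.2 ((p.1 : ℕ) - R)) else 0)
    ?_ (B := {0, 1}) (toFinite _) (fun x => ?_) fun x => ?_
  · rintro (z₀ | p)
    · exact lc_cont hT (G := fun a _ => if a = z₀ then (1 : ℝ) else 0) fun _ => continuous_const
    · refine lc_cont hT (G := fun a (x : holeSet σ F v) => if (σ ^ (((p.1 : ℕ) : ℤ) - R)) a ∈ F then
        ψ p.2 (x.1.2 ((p.1 : ℕ) - R)) else 0) fun a => ?_
      split_ifs
      · exact ce _ _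
      · exact continuous_const
  · refine (ncard_le_ncard (t := Sum.inr '' {p : Fin (N + 2 * R + 1) × Λ |
      (σ ^ (((p.1 : ℕ) : ℤ) - R)) (c x.1.1) ∈ F ∧ ψ p.2 (x.1.2 ((p.1 : ℕ) - R)) ∉ ({0, 1} : Set ℝ)})
      ?_ (toFinite _)).trans ((ncard_image_le (toFinite _)).trans ?_)
    · rintro (z₀ | p) hp
      · refine absurd ?_ hp
        simp only [Sum.elim_inl]
        split_ifs <;> simp
      · refine ⟨p, ?_, rfl⟩
        simp only [mem_ofPred_eq, Sum.elim_inr] at hp ⊢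
        split_ifs at hp with h1
        · exact ⟨h1, hp⟩
        · exact absurd (Or.inl rfl) hp
    refine le_trans ?_ (Nat.mul_le_mul_left _ (cnt_le_mx ((σ ^ (-R : ℤ)) (c x.1.1)) _))
    rw [ncard_eq_toFinset_card', cnt]
    refine Finset.card_le_mul_card_image_of_maps_to (f := fun p => (p.1 : ℕ)) (fun p hp => ?_) _
      fun b _ => ?_
    · rw [mem_toFinset] at hp
      refine Finset.mem_filter.2 ⟨Finset.mem_range.2 p.1.2, ?_⟩
      rw [← Homeomorph.mul_apply, ← zpow_add, ← sub_eq_add_neg]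
      exact hp.1
    · refine le_trans ?_ (c3 (x.1.2 (b - R)))
      rw [ncard_eq_toFinset_card']
      refine Finset.card_le_card_of_injOn Prod.snd (fun p hp => ?_) fun p hp p' hp' e => ?_
      · obtain ⟨h1, rfl⟩ := Finset.mem_filter.1 hp
        rw [mem_toFinset] at h1
        exact Finset.mem_coe.2 (mem_toFinset.2 h1.2)
      · exact Prod.ext (Fin.ext ((Finset.mem_filter.1 hp).2.trans
          (Finset.mem_filter.1 hp').2.symm)) e
  · choose U h1 h2 using fun j : Fin N => hR (h^[j] x)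
    refine ⟨_, ⟨U, h1, rfl⟩, fun x' hx' => mem_iInter.2 fun j => h2 j _ ?_⟩
    have hcc : c x'.1.1 = c x.1.1 := by
      have h3 := hx' (Sum.inl ⟨c x.1.1, mem_range_self _⟩) (by simp)
      by_contra h4
      simp [h4] at h3
    have hj := j.2
    simp only [H.iter, H.zpow_fst, H.zpow_snd]
    refine ⟨?_, fun i hi => ?_⟩
    · have e : (((j + R : ℕ) : ℕ) : ℤ) - R = (j : ℕ) := by omega
      have a1 := (hO x.1.1 ⟨j + R, by omega⟩).1
      have a2 := (hO x'.1.1 ⟨j + R, by omega⟩).1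
      simp only [e, hcc] at a1 a2
      linarith [dist_triangle_right ((σ ^ ((j : ℕ) : ℤ)) x.1.1) ((σ ^ ((j : ℕ) : ℤ)) x'.1.1)
        ((σ ^ ((j : ℕ) : ℤ)) (c x.1.1))]
    · obtain ⟨i1, i2⟩ := abs_le.1 hi
      have e : (((i + (j : ℕ) + R).toNat : ℕ) : ℤ) - R = i + (j : ℕ) := by omega
      by_cases hF : (σ ^ (i + (j : ℕ))) (c x.1.1) ∈ F
      · obtain ⟨l, hl⟩ := c2 (x.1.2 (i + (j : ℕ)))
        have h3 := hx' (Sum.inr (⟨(i + (j : ℕ) + R).toNat, by omega⟩, l))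
        simp only [Sum.elim_inr, e, hcc, if_pos hF] at h3
        exact c4 l _ _ hl (h3 hl)
      · have a1 := (hO x.1.1 ⟨(i + (j : ℕ) + R).toNat, by omega⟩).2
        have a2 := (hO x'.1.1 ⟨(i + (j : ℕ) + R).toNat, by omega⟩).2
        simp only [e, hcc] at a1 a2
        rw [x.2 _ (a1 hF).1, x'.2 _ (a2 hF).1]
        linarith [(a1 hF).2, (a2 hF).2, dist_triangle_right (v ((σ ^ (i + (j : ℕ))) x.1.1))
          (v ((σ ^ (i + (j : ℕ))) x'.1.1)) (v ((σ ^ (i + (j : ℕ))) (c x.1.1)))]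

theorem hole_limsup (H : Hole σ F v h) {𝒰 : Set (Set (holeSet σ F v))} (hU : IsCover 𝒰) :
    ∃ 𝒲 : Set (Set K), IsCover 𝒲 ∧
      limsup (fun N : ℕ => (leastOrd (joinCov h 𝒰 N) : ℝ≥0∞) / N) atTop ≤
        ENNReal.ofReal (leastOrd 𝒲 * cap σ F) := by
  obtain ⟨𝒲, R, hW, hR⟩ := hole_ord H hU
  refine ⟨𝒲, hW, ENNReal.le_of_forall_pos_le_add fun ε hε _ => ?_⟩
  obtain ⟨k, hk⟩ : ∃ k, k = leastOrd 𝒲 := ⟨_, rfl⟩
  rw [← hk] at hR ⊢
  have hε' : (0 : ℝ) < ε := hε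
  have hη : (0 : ℝ) < ε / (k + 1) := by positivity
  obtain ⟨C, hC⟩ := mx_upper (σ := σ) (F := F) hη
  obtain ⟨ρ, hρ⟩ : ∃ ρ : ℝ, ρ = cap σ F + ε / (k + 1) := ⟨_, rfl⟩
  rw [← hρ] at hC
  have t := ENNReal.tendsto_ofReal ((tendsto_const_nhds (x := k * ρ)).add
    (tendsto_const_div_atTop_nhds_zero_nat (k * (ρ * (2 * R + 1) + C))))
  rw [add_zero] at t
  refine ((limsup_le_limsup ?_).trans_eq t.limsup_eq).trans ?_
  · filter_upwards [eventually_gt_atTop 0] with N hN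
    have N0 : (0 : ℝ) < N := Nat.cast_pos.2 hN
    rw [← ENNReal.ofReal_natCast, ← ENNReal.ofReal_natCast N, ← ENNReal.ofReal_div_of_pos N0]
    refine ENNReal.ofReal_le_ofReal ?_
    have a : (leastOrd (joinCov h 𝒰 N) : ℝ) ≤ k * (mx σ F (N + 2 * R + 1) : ℝ) := by
      exact_mod_cast hR N
    have b := a.trans (mul_le_mul_of_nonneg_left (hC _) k.cast_nonneg)
    rw [div_le_iff₀ N0, add_mul, div_mul_cancel₀ _ N0.ne']
    push_cast at b
    linarith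
  · rw [← ENNReal.ofReal_coe_nnreal]
    refine le_trans (ENNReal.ofReal_le_ofReal ?_) ENNReal.ofReal_add_le
    have : (k : ℝ) * (ε / (k + 1)) ≤ ε := by
      rw [← mul_div_assoc, div_le_iff₀ (by positivity)]
      linarith
    rw [hρ]
    linarith

end Vale.Agent.P093
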